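import Mathlib

/-!
# S0112, package G: random phases (helper92)

Finite averages over phase vectors `θ : ι → Fin 4` (phases `1, i, -1, -i`).

* `sum_phase_pair`  : `∑_θ conj(ph θ_i) * ph θ_j = 4^|ι| * [i = j]`
* `sum_phase_four`  : `∑_θ ph θ_i * conj(ph θ_j) * conj(ph θ_k) * ph θ_l = 4^|ι| * [(i=j ∧ k=l) ∨ (i=k ∧ j=l)]`
* `sum_norm_sq_phase` (second moment, vectors)
* `sum_norm_sq_phase_two` (fourth moment, vectors)
* operator forms `G1`, `G2` and the normalised forms / selection lemma used in the assembly.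
-/

set_option autoImplicit false

namespace Crest.Agent.Helper92.S0112

open Finset
open scoped ComplexConjugate

/-- The four phases `1, i, -1, -i`. -/
noncomputable def phase (k : Fin 4) : ℂ := Complex.I ^ (k : ℕ)

lemma phase_mul_conj (k : Fin 4) : phase k * conj (phase k) = 1 := by
  unfold phase
  rw [map_pow, ← mul_pow, Complex.mul_conj, Complex.normSq_I]
  simp

lemma conj_phase_mul (k : Fin 4) : conj (phase k) * phase k = 1 := by
  rw [mul_comm, phase_mul_conj]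

lemma norm_phase (k : Fin 4) : ‖phase k‖ = 1 := by
  unfold phase
  simp

lemma sum_phase : ∑ k : Fin 4, phase k = 0 := by
  simp only [phase, Fin.sum_univ_four]
  simp [pow_succ, Complex.I_mul_I]

lemma sum_phase_sq : ∑ k : Fin 4, phase k * phase k = 0 := by
  simp only [phase, Fin.sum_univ_four]
  simp [pow_succ, Complex.I_mul_I]

lemma sum_conj_phase : ∑ k : Fin 4, conj (phase k) = 0 := by
  rw [← map_sum, sum_phase, map_zero]

lemma sum_conj_phase_sq : ∑ k : Fin 4, conj (phase k) * conj (phase k) = 0 := by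
  have := congrArg conj sum_phase_sq
  simpa [map_sum, map_mul] using this

lemma conj_conj_phase_mul (k : Fin 4) : conj (phase k) * conj (phase k) * phase k = conj (phase k) := by
  rw [mul_assoc, conj_phase_mul, mul_one]

/-- The one-coordinate sums. -/
lemma coord_sum (p q r s : Prop) [Decidable p] [Decidable q] [Decidable r] [Decidable s] :
    ∑ k : Fin 4, ((if p then phase k else 1) * (if q then conj (phase k) else 1) *
        (if r then conj (phase k) else 1) * (if s then phase k else 1))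
      = if ((p ∧ s) ↔ (q ∧ r)) ∧ ((p ∨ s) ↔ (q ∨ r)) then (4 : ℂ) else 0 := by
  by_cases hp : p <;> by_cases hq : q <;> by_cases hr : r <;> by_cases hs : s <;>
    simp [hp, hq, hr, hs, sum_phase, sum_conj_phase, sum_phase_sq, sum_conj_phase_sq,
      phase_mul_conj, conj_phase_mul, conj_conj_phase_mul]

section Sums

variable {ι : Type*} [Fintype ι] [DecidableEq ι]

/-- Product formula for sums over phase vectors. -/
lemma sum_prod_phase (F : ι → ℂ → ℂ) :
    ∑ θ : ι → Fin 4, ∏ m, F m (phase (θ m)) = ∏ m, ∑ k : Fin 4, F m (phase k) := by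
  have := Finset.sum_prod_piFinset (ι := ι) (Finset.univ : Finset (Fin 4))
    (fun m k => F m (phase k))
  simpa [Fintype.piFinset_univ] using this

/-- The four-phase expectation. -/
lemma sum_phase_four (i j k l : ι) :
    ∑ θ : ι → Fin 4, phase (θ i) * conj (phase (θ j)) * conj (phase (θ k)) * phase (θ l)
      = if (i = j ∧ k = l) ∨ (i = k ∧ j = l) then (4 : ℂ) ^ Fintype.card ι else 0 := by
  have key : ∀ θ : ι → Fin 4,
      phase (θ i) * conj (phase (θ j)) * conj (phase (θ k)) * phase (θ l)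
      = ∏ m, ((if m = i then phase (θ m) else 1) * (if m = j then conj (phase (θ m)) else 1) *
          (if m = k then conj (phase (θ m)) else 1) * (if m = l then phase (θ m) else 1)) := by
    intro θ
    rw [Finset.prod_mul_distrib, Finset.prod_mul_distrib, Finset.prod_mul_distrib]
    simp only [Finset.prod_ite_eq', Finset.mem_univ, if_true]
  simp_rw [key]
  rw [sum_prod_phase (fun m z => (if m = i then z else 1) * (if m = j then conj z else 1) *
          (if m = k then conj z else 1) * (if m = l then z else 1))]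
  simp_rw [coord_sum]
  rw [Finset.prod_ite_zero]
  have hiff : (∀ m ∈ (Finset.univ : Finset ι), ((m = i ∧ m = l) ↔ (m = j ∧ m = k)) ∧
      ((m = i ∨ m = l) ↔ (m = j ∨ m = k))) ↔ ((i = j ∧ k = l) ∨ (i = k ∧ j = l)) := by
    constructor
    · intro h
      have hi := h i (Finset.mem_univ i)
      have hl := h l (Finset.mem_univ l)
      simp only [true_and, true_or, true_iff, and_true, or_true] at hi hl
      obtain ⟨hi1, hi2⟩ := hi
      obtain ⟨hl1, hl2⟩ := hl
      rcases hi2 with h1 | h1 <;> rcases hl2 with h2 | h2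
      · have : i = l := h1.trans h2.symm
        have h3 := hi1.mp this
        left; exact ⟨h1, h3.2.symm.trans this⟩
      · left; exact ⟨h1, h2.symm⟩
      · right; exact ⟨h1, h2.symm⟩
      · have : i = l := h1.trans h2.symm
        have h3 := hi1.mp this
        right; exact ⟨h1, h3.1.symm.trans this⟩
    · rintro (⟨rfl, rfl⟩ | ⟨rfl, rfl⟩) m _ <;> tauto
  simp only [hiff, Finset.prod_const, Finset.card_univ]

/-- The two-phase expectation. -/
lemma sum_phase_pair (i j : ι) :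
    ∑ θ : ι → Fin 4, conj (phase (θ i)) * phase (θ j)
      = if i = j then (4 : ℂ) ^ Fintype.card ι else 0 := by
  have h := sum_phase_four j i j j
  have e : ∀ θ : ι → Fin 4, phase (θ j) * conj (phase (θ i)) * conj (phase (θ j)) * phase (θ j)
      = conj (phase (θ i)) * phase (θ j) := by
    intro θ
    have := phase_mul_conj (θ j)
    calc _ = conj (phase (θ i)) * phase (θ j) * (phase (θ j) * conj (phase (θ j))) := by ring
      _ = _ := by rw [this, mul_one]
  simp_rw [e] at h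
  rw [h]
  by_cases hij : i = j
  · subst hij; simp
  · have hji : ¬ j = i := fun h => hij h.symm
    simp [hij, hji]

end Sums

section Vectors

variable {ι : Type*} [Fintype ι] [DecidableEq ι]
variable {E : Type*} [NormedAddCommGroup E] [InnerProductSpace ℂ E]

/-- Second moment, inner-product form. -/
lemma sum_inner_phase (y : ι → E) :
    ∑ θ : ι → Fin 4, inner ℂ (∑ i, phase (θ i) • y i) (∑ i, phase (θ i) • y i)
      = (4 : ℂ) ^ Fintype.card ι * ∑ i, inner ℂ (y i) (y i) := by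
  have e : ∀ θ : ι → Fin 4, inner ℂ (∑ i, phase (θ i) • y i) (∑ i, phase (θ i) • y i)
      = ∑ i, ∑ j, conj (phase (θ i)) * phase (θ j) * inner ℂ (y i) (y j) := by
    intro θ
    rw [sum_inner]
    refine Finset.sum_congr rfl fun i _ => ?_
    rw [inner_sum]
    refine Finset.sum_congr rfl fun j _ => ?_
    rw [inner_smul_left, inner_smul_right, mul_assoc]
  simp_rw [e]
  calc ∑ θ : ι → Fin 4, ∑ i, ∑ j, conj (phase (θ i)) * phase (θ j) * inner ℂ (y i) (y j)
      = ∑ i, ∑ j, (∑ θ : ι → Fin 4, conj (phase (θ i)) * phase (θ j)) * inner ℂ (y i) (y j) := by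
        rw [Finset.sum_comm]
        refine Finset.sum_congr rfl fun i _ => ?_
        rw [Finset.sum_comm]
        refine Finset.sum_congr rfl fun j _ => ?_
        rw [Finset.sum_mul]
    _ = (4 : ℂ) ^ Fintype.card ι * ∑ i, inner ℂ (y i) (y i) := by
        simp [sum_phase_pair, Finset.mul_sum]

/-- **Second moment**: `∑_θ ‖∑_i θ_i y_i‖² = 4^|ι| ∑_i ‖y_i‖²`. -/
theorem sum_norm_sq_phase (y : ι → E) :
    ∑ θ : ι → Fin 4, ‖∑ i, phase (θ i) • y i‖ ^ 2
      = (4 : ℝ) ^ Fintype.card ι * ∑ i, ‖y i‖ ^ 2 := by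
  have h := sum_inner_phase y
  simp_rw [inner_self_eq_norm_sq_to_K] at h
  have h' : ((∑ θ : ι → Fin 4, ‖∑ i, phase (θ i) • y i‖ ^ 2 : ℝ) : ℂ)
      = (((4 : ℝ) ^ Fintype.card ι * ∑ i, ‖y i‖ ^ 2 : ℝ) : ℂ) := by
    push_cast
    exact h
  exact Complex.ofReal_injective h'

/-- Fourth moment, inner-product form. -/
lemma sum_inner_phase_two (z : ι → ι → E) :
    ∑ θ : ι → Fin 4, inner ℂ (∑ i, ∑ j, (conj (phase (θ i)) * phase (θ j)) • z i j)
        (∑ i, ∑ j, (conj (phase (θ i)) * phase (θ j)) • z i j)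
      = (4 : ℂ) ^ Fintype.card ι * (inner ℂ (∑ i, z i i) (∑ i, z i i)
          + ∑ i, ∑ j ∈ Finset.univ.erase i, inner ℂ (z i j) (z i j)) := by
  have e : ∀ θ : ι → Fin 4,
      inner ℂ (∑ i, ∑ j, (conj (phase (θ i)) * phase (θ j)) • z i j)
        (∑ i, ∑ j, (conj (phase (θ i)) * phase (θ j)) • z i j)
      = ∑ i, ∑ j, ∑ k, ∑ l, phase (θ i) * conj (phase (θ j)) * conj (phase (θ k)) * phase (θ l)
          * inner ℂ (z i j) (z k l) := by
    intro θ
    rw [sum_inner]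
    refine Finset.sum_congr rfl fun i _ => ?_
    rw [sum_inner]
    refine Finset.sum_congr rfl fun j _ => ?_
    rw [inner_sum]
    refine Finset.sum_congr rfl fun k _ => ?_
    rw [inner_sum]
    refine Finset.sum_congr rfl fun l _ => ?_
    rw [inner_smul_left, inner_smul_right, map_mul, Complex.conj_conj]
    ring
  simp_rw [e]
  have e2 : ∑ θ : ι → Fin 4, ∑ i, ∑ j, ∑ k, ∑ l,
        phase (θ i) * conj (phase (θ j)) * conj (phase (θ k)) * phase (θ l)
          * inner ℂ (z i j) (z k l)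
      = ∑ i, ∑ j, ∑ k, ∑ l,
          (∑ θ : ι → Fin 4, phase (θ i) * conj (phase (θ j)) * conj (phase (θ k)) * phase (θ l))
          * inner ℂ (z i j) (z k l) := by
    rw [Finset.sum_comm]
    refine Finset.sum_congr rfl fun i _ => ?_
    rw [Finset.sum_comm]
    refine Finset.sum_congr rfl fun j _ => ?_
    rw [Finset.sum_comm]
    refine Finset.sum_congr rfl fun k _ => ?_
    rw [Finset.sum_comm]
    refine Finset.sum_congr rfl fun l _ => ?_
    rw [Finset.sum_mul]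
  rw [e2]
  simp_rw [sum_phase_four]
  -- inner double sum for fixed `i j`
  have e3 : ∀ i j : ι, ∑ k, ∑ l,
        (if (i = j ∧ k = l) ∨ (i = k ∧ j = l) then (4 : ℂ) ^ Fintype.card ι else 0)
          * inner ℂ (z i j) (z k l)
      = (4 : ℂ) ^ Fintype.card ι *
          (if i = j then inner ℂ (z i i) (∑ k, z k k) else inner ℂ (z i j) (z i j)) := by
    intro i j
    by_cases hij : i = j
    · subst hij
      have hsum : ∀ k : ι, ∑ l,
            (if (i = i ∧ k = l) ∨ (i = k ∧ i = l) then (4 : ℂ) ^ Fintype.card ι else 0)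
              * inner ℂ (z i i) (z k l)
          = (4 : ℂ) ^ Fintype.card ι * inner ℂ (z i i) (z k k) := by
        intro k
        rw [Finset.sum_eq_single k]
        · rw [if_pos (Or.inl ⟨rfl, rfl⟩)]
        · intro l _ hl
          rw [if_neg, zero_mul]
          rintro (⟨_, h⟩ | ⟨h1, h2⟩)
          · exact hl h.symm
          · exact hl (h1.symm.trans h2).symm
        · intro h; exact absurd (Finset.mem_univ k) h
      calc ∑ k, ∑ l,
            (if (i = i ∧ k = l) ∨ (i = k ∧ i = l) then (4 : ℂ) ^ Fintype.card ι else 0)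
              * inner ℂ (z i i) (z k l)
          = ∑ k, (4 : ℂ) ^ Fintype.card ι * inner ℂ (z i i) (z k k) :=
            Finset.sum_congr rfl fun k _ => hsum k
        _ = _ := by rw [if_pos rfl, inner_sum, Finset.mul_sum]
    · rw [if_neg hij]
      rw [Finset.sum_eq_single i]
      · rw [Finset.sum_eq_single j]
        · rw [if_pos (Or.inr ⟨rfl, rfl⟩)]
        · intro l _ hl
          rw [if_neg, zero_mul]
          rintro (⟨h, _⟩ | ⟨_, h2⟩)
          · exact hij h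
          · exact hl h2.symm
        · intro h; exact absurd (Finset.mem_univ j) h
      · intro k _ hk
        refine Finset.sum_eq_zero fun l _ => ?_
        rw [if_neg, zero_mul]
        rintro (⟨h, _⟩ | ⟨h1, _⟩)
        · exact hij h
        · exact hk h1.symm
      · intro h; exact absurd (Finset.mem_univ i) h
  simp_rw [e3, ← Finset.mul_sum]
  congr 1
  have e4 : ∀ i : ι, ∑ j, (if i = j then inner ℂ (z i i) (∑ k, z k k) else inner ℂ (z i j) (z i j))
      = inner ℂ (z i i) (∑ k, z k k) + ∑ j ∈ Finset.univ.erase i, inner ℂ (z i j) (z i j) := by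
    intro i
    rw [← Finset.add_sum_erase _ _ (Finset.mem_univ i)]
    congr 1
    · simp
    · refine Finset.sum_congr rfl fun j hj => ?_
      have : i ≠ j := (Finset.ne_of_mem_erase hj).symm
      simp [this]
  simp_rw [e4]
  rw [Finset.sum_add_distrib, ← sum_inner]

/-- **Fourth moment**:
`∑_θ ‖∑_{i,j} conj(θ_i) θ_j z_ij‖² = 4^|ι| (‖∑_i z_ii‖² + ∑_{i ≠ j} ‖z_ij‖²)`. -/
theorem sum_norm_sq_phase_two (z : ι → ι → E) :
    ∑ θ : ι → Fin 4, ‖∑ i, ∑ j, (conj (phase (θ i)) * phase (θ j)) • z i j‖ ^ 2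
      = (4 : ℝ) ^ Fintype.card ι *
          (‖∑ i, z i i‖ ^ 2 + ∑ i, ∑ j ∈ Finset.univ.erase i, ‖z i j‖ ^ 2) := by
  have h := sum_inner_phase_two z
  simp_rw [inner_self_eq_norm_sq_to_K] at h
  have h' : ((∑ θ : ι → Fin 4,
        ‖∑ i, ∑ j, (conj (phase (θ i)) * phase (θ j)) • z i j‖ ^ 2 : ℝ) : ℂ)
      = (((4 : ℝ) ^ Fintype.card ι *
          (‖∑ i, z i i‖ ^ 2 + ∑ i, ∑ j ∈ Finset.univ.erase i, ‖z i j‖ ^ 2) : ℝ) : ℂ) := by
    push_cast
    exact h
  exact Complex.ofReal_injective h'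

end Vectors

section Operators

variable {ι : Type*} [Fintype ι] [DecidableEq ι]
variable {H : Type*} [NormedAddCommGroup H] [InnerProductSpace ℂ H] [CompleteSpace H]

/-- The unnormalised phase sum `∑_i θ_i x_i`. -/
noncomputable def phaseSum (x : ι → H →L[ℂ] H) (θ : ι → Fin 4) : H →L[ℂ] H :=
  ∑ i, phase (θ i) • x i

lemma phaseSum_apply (x : ι → H →L[ℂ] H) (θ : ι → Fin 4) (ξ : H) :
    phaseSum x θ ξ = ∑ i, phase (θ i) • x i ξ := by
  simp [phaseSum, ContinuousLinearMap.sum_apply]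

lemma star_phaseSum (x : ι → H →L[ℂ] H) (θ : ι → Fin 4) :
    star (phaseSum x θ) = ∑ i, conj (phase (θ i)) • star (x i) := by
  simp [phaseSum, star_sum, star_smul]

lemma star_phaseSum_mul_apply (x : ι → H →L[ℂ] H) (θ : ι → Fin 4) (ξ : H) :
    (star (phaseSum x θ) * phaseSum x θ) ξ
      = ∑ i, ∑ j, (conj (phase (θ i)) * phase (θ j)) • (star (x i) * x j) ξ := by
  rw [star_phaseSum, phaseSum, Finset.sum_mul, ContinuousLinearMap.sum_apply]
  refine Finset.sum_congr rfl fun i _ => ?_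
  rw [Finset.mul_sum, ContinuousLinearMap.sum_apply]
  refine Finset.sum_congr rfl fun j _ => ?_
  rw [smul_mul_smul_comm, ContinuousLinearMap.smul_apply]

/-- **G1 (unnormalised)**: `∑_θ ‖T (∑_i θ_i x_i) ξ‖² = 4^|ι| ∑_i ‖T x_i ξ‖²`. -/
theorem G1_sum {F : Type*} [NormedAddCommGroup F] [InnerProductSpace ℂ F]
    (T : H →L[ℂ] F) (x : ι → H →L[ℂ] H) (ξ : H) :
    ∑ θ : ι → Fin 4, ‖T (phaseSum x θ ξ)‖ ^ 2
      = (4 : ℝ) ^ Fintype.card ι * ∑ i, ‖T (x i ξ)‖ ^ 2 := by
  have : ∀ θ : ι → Fin 4, T (phaseSum x θ ξ) = ∑ i, phase (θ i) • T (x i ξ) := by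
    intro θ
    rw [phaseSum_apply, map_sum]
    simp
  simp_rw [this]
  exact sum_norm_sq_phase _

/-- **G2 (unnormalised)**: with `V_θ = ∑_i θ_i x_i`,
`∑_θ ‖V_θ* V_θ ξ‖² = 4^|ι| (‖∑_i x_i* x_i ξ‖² + ∑_{i ≠ j} ‖x_i* x_j ξ‖²)`. -/
theorem G2_sum (x : ι → H →L[ℂ] H) (ξ : H) :
    ∑ θ : ι → Fin 4, ‖(star (phaseSum x θ) * phaseSum x θ) ξ‖ ^ 2
      = (4 : ℝ) ^ Fintype.card ι * (‖∑ i, (star (x i) * x i) ξ‖ ^ 2
          + ∑ i, ∑ j ∈ Finset.univ.erase i, ‖(star (x i) * x j) ξ‖ ^ 2) := by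
  simp_rw [star_phaseSum_mul_apply]
  exact sum_norm_sq_phase_two (fun i j => (star (x i) * x j) ξ)

/-- `‖x_i* x_j ξ‖² = re ⟨x_j ξ, x_i x_i* x_j ξ⟩`. -/
lemma norm_sq_star_mul_apply (a b : H →L[ℂ] H) (ξ : H) :
    ‖(star a * b) ξ‖ ^ 2 = RCLike.re (inner ℂ (b ξ) ((a * star a) (b ξ))) := by
  rw [ContinuousLinearMap.mul_apply, ContinuousLinearMap.mul_apply,
    ContinuousLinearMap.star_eq_adjoint, ← ContinuousLinearMap.adjoint_inner_left,
    inner_self_eq_norm_sq]

/-- The off-diagonal part is dominated by the full double sum, written with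
`R = ∑_i x_i x_i*`. -/
lemma sum_offdiag_le (x : ι → H →L[ℂ] H) (ξ : H) :
    ∑ i, ∑ j ∈ Finset.univ.erase i, ‖(star (x i) * x j) ξ‖ ^ 2
      ≤ ∑ j, RCLike.re (inner ℂ (x j ξ) ((∑ i, x i * star (x i)) (x j ξ))) := by
  calc ∑ i, ∑ j ∈ Finset.univ.erase i, ‖(star (x i) * x j) ξ‖ ^ 2
      ≤ ∑ i, ∑ j, ‖(star (x i) * x j) ξ‖ ^ 2 := by
        refine Finset.sum_le_sum fun i _ => ?_
        exact Finset.sum_le_sum_of_subset_of_nonneg (Finset.erase_subset _ _)
          (fun j _ _ => sq_nonneg _)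
    _ = ∑ j, ∑ i, ‖(star (x i) * x j) ξ‖ ^ 2 := Finset.sum_comm
    _ = ∑ j, RCLike.re (inner ℂ (x j ξ) ((∑ i, x i * star (x i)) (x j ξ))) := by
        refine Finset.sum_congr rfl fun j _ => ?_
        rw [ContinuousLinearMap.sum_apply, inner_sum, map_sum]
        refine Finset.sum_congr rfl fun i _ => ?_
        exact norm_sq_star_mul_apply _ _ _

/-- The normalised phase sum `v_θ = |ι|^{-1/2} ∑_i θ_i x_i`. -/
noncomputable def phaseOp (x : ι → H →L[ℂ] H) (θ : ι → Fin 4) : H →L[ℂ] H :=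
  (((Real.sqrt (Fintype.card ι))⁻¹ : ℝ) : ℂ) • phaseSum x θ

/-- Average of a real function over all phase vectors. -/
noncomputable def phaseAvg (f : (ι → Fin 4) → ℝ) : ℝ :=
  (∑ θ, f θ) / (4 : ℝ) ^ Fintype.card ι

lemma phaseOp_mem (M : VonNeumannAlgebra H) (x : ι → H →L[ℂ] H) (hx : ∀ i, x i ∈ M)
    (θ : ι → Fin 4) : phaseOp x θ ∈ M := by
  have hs : ∀ (c : ℂ) (A : H →L[ℂ] H), A ∈ M → c • A ∈ M := by
    intro c A hA
    have : c • A ∈ M.toStarSubalgebra := M.toStarSubalgebra.smul_mem hA c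
    exact this
  unfold phaseOp phaseSum
  exact hs _ _ (sum_mem fun i _ => hs _ _ (hx i))

lemma norm_sq_phaseOp_apply {F : Type*} [NormedAddCommGroup F] [InnerProductSpace ℂ F]
    (T : H →L[ℂ] F) (x : ι → H →L[ℂ] H) (θ : ι → Fin 4) (ξ : H) :
    ‖T (phaseOp x θ ξ)‖ ^ 2 = ‖T (phaseSum x θ ξ)‖ ^ 2 / Fintype.card ι := by
  simp only [phaseOp, ContinuousLinearMap.smul_apply, map_smul, norm_smul, mul_pow]
  rw [Complex.norm_real, Real.norm_eq_abs, sq_abs, inv_pow, Real.sq_sqrt (Nat.cast_nonneg _)]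
  ring

lemma star_phaseOp_mul (x : ι → H →L[ℂ] H) (θ : ι → Fin 4) :
    star (phaseOp x θ) * phaseOp x θ
      = (((Fintype.card ι : ℝ)⁻¹ : ℝ) : ℂ) • (star (phaseSum x θ) * phaseSum x θ) := by
  unfold phaseOp
  rw [star_smul, smul_mul_smul_comm]
  congr 1
  rw [Complex.star_def, Complex.conj_ofReal, ← Complex.ofReal_mul, ← sq, inv_pow,
    Real.sq_sqrt (Nat.cast_nonneg _)]

lemma norm_sq_star_phaseOp_mul_apply (x : ι → H →L[ℂ] H) (θ : ι → Fin 4) (ξ : H) :
    ‖(star (phaseOp x θ) * phaseOp x θ) ξ‖ ^ 2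
      = ‖(star (phaseSum x θ) * phaseSum x θ) ξ‖ ^ 2 / (Fintype.card ι : ℝ) ^ 2 := by
  rw [star_phaseOp_mul, ContinuousLinearMap.smul_apply, norm_smul, mul_pow, Complex.norm_real,
    Real.norm_eq_abs, sq_abs, inv_pow]
  ring

/-- **G1**: `E_θ ‖T v_θ ξ‖² = (1/N) ∑_i ‖T x_i ξ‖²`. -/
theorem G1 {F : Type*} [NormedAddCommGroup F] [InnerProductSpace ℂ F]
    (T : H →L[ℂ] F) (x : ι → H →L[ℂ] H) (ξ : H) :
    phaseAvg (fun θ => ‖T (phaseOp x θ ξ)‖ ^ 2) = (∑ i, ‖T (x i ξ)‖ ^ 2) / Fintype.card ι := by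
  unfold phaseAvg
  simp_rw [norm_sq_phaseOp_apply]
  rw [← Finset.sum_div, G1_sum, mul_div_assoc,
    mul_div_cancel_left₀ _ (pow_ne_zero _ (by norm_num : (4 : ℝ) ≠ 0))]

/-- **G2**: `E_θ ‖v_θ* v_θ ξ‖² = N⁻² (‖∑_i x_i* x_i ξ‖² + ∑_{i ≠ j} ‖x_i* x_j ξ‖²)`. -/
theorem G2 (x : ι → H →L[ℂ] H) (ξ : H) :
    phaseAvg (fun θ => ‖(star (phaseOp x θ) * phaseOp x θ) ξ‖ ^ 2)
      = (‖∑ i, (star (x i) * x i) ξ‖ ^ 2
          + ∑ i, ∑ j ∈ Finset.univ.erase i, ‖(star (x i) * x j) ξ‖ ^ 2)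
        / (Fintype.card ι : ℝ) ^ 2 := by
  unfold phaseAvg
  simp_rw [norm_sq_star_phaseOp_mul_apply]
  rw [← Finset.sum_div, G2_sum, mul_div_assoc,
    mul_div_cancel_left₀ _ (pow_ne_zero _ (by norm_num : (4 : ℝ) ≠ 0))]

/-- **G2, upper bound** with `R = ∑_i x_i x_i*` (unnormalised sums):
`E_θ ‖v_θ* v_θ ξ‖² ≤ N⁻² (‖∑_i x_i* x_i ξ‖² + ∑_j re ⟨x_j ξ, R x_j ξ⟩)`. -/
theorem G2_le (x : ι → H →L[ℂ] H) (ξ : H) :
    phaseAvg (fun θ => ‖(star (phaseOp x θ) * phaseOp x θ) ξ‖ ^ 2)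
      ≤ (‖∑ i, (star (x i) * x i) ξ‖ ^ 2
          + ∑ j, RCLike.re (inner ℂ (x j ξ) ((∑ i, x i * star (x i)) (x j ξ))))
        / (Fintype.card ι : ℝ) ^ 2 := by
  rw [G2]
  exact div_le_div_of_nonneg_right (by linarith [sum_offdiag_le x ξ]) (sq_nonneg _)

end Operators

section Average

variable {ι : Type*} [Fintype ι] [DecidableEq ι]

lemma phaseAvg_mono {f g : (ι → Fin 4) → ℝ} (h : ∀ θ, f θ ≤ g θ) : phaseAvg f ≤ phaseAvg g := by
  unfold phaseAvg
  exact div_le_div_of_nonneg_right (Finset.sum_le_sum fun θ _ => h θ) (by positivity)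

lemma phaseAvg_add (f g : (ι → Fin 4) → ℝ) :
    phaseAvg (fun θ => f θ + g θ) = phaseAvg f + phaseAvg g := by
  unfold phaseAvg
  rw [Finset.sum_add_distrib, add_div]

lemma phaseAvg_const_mul (c : ℝ) (f : (ι → Fin 4) → ℝ) :
    phaseAvg (fun θ => c * f θ) = c * phaseAvg f := by
  unfold phaseAvg
  rw [← Finset.mul_sum, mul_div_assoc]

lemma phaseAvg_const (c : ℝ) : phaseAvg (fun _ : ι → Fin 4 => c) = c := by
  unfold phaseAvg
  rw [Finset.sum_const, Finset.card_univ, Fintype.card_fun, Fintype.card_fin, nsmul_eq_mul]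
  push_cast
  field_simp

/-- Some phase vector is at least as good as the average. -/
lemma exists_le_of_phaseAvg (f : (ι → Fin 4) → ℝ) : ∃ θ, phaseAvg f ≤ f θ := by
  by_contra hcon
  push_neg at hcon
  have hne : (Finset.univ : Finset (ι → Fin 4)).Nonempty := Finset.univ_nonempty
  have h1 : ∑ θ, f θ < ∑ _θ : ι → Fin 4, phaseAvg f :=
    Finset.sum_lt_sum_of_nonempty hne fun θ _ => hcon θ
  have h2 : ∑ _θ : ι → Fin 4, phaseAvg f = (4 : ℝ) ^ Fintype.card ι * phaseAvg f := by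
    rw [Finset.sum_const, Finset.card_univ, Fintype.card_fun, Fintype.card_fin, nsmul_eq_mul]
    push_cast
    ring
  have h3 : (4 : ℝ) ^ Fintype.card ι * phaseAvg f = ∑ θ, f θ := by
    unfold phaseAvg
    field_simp
  linarith

/-- **Selection step (I.6)**: if `A θ ≤ 2 g θ + K B θ` for every phase vector, `a ≤ E A` and
`E B ≤ b`, then some phase vector has `g θ ≥ (a - K b)/2`. -/
theorem exists_phase_of_avg (A B g : (ι → Fin 4) → ℝ) (a b K : ℝ)
    (hA : a ≤ phaseAvg A) (hB : phaseAvg B ≤ b) (hK : 0 ≤ K)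
    (h : ∀ θ, A θ ≤ 2 * g θ + K * B θ) : ∃ θ, (a - K * b) / 2 ≤ g θ := by
  obtain ⟨θ, hθ⟩ := exists_le_of_phaseAvg g
  refine ⟨θ, le_trans ?_ hθ⟩
  have h1 : phaseAvg A ≤ 2 * phaseAvg g + K * phaseAvg B := by
    calc phaseAvg A ≤ phaseAvg (fun θ => 2 * g θ + K * B θ) := phaseAvg_mono h
      _ = 2 * phaseAvg g + K * phaseAvg B := by
        rw [phaseAvg_add, phaseAvg_const_mul, phaseAvg_const_mul]
  have h2 : K * phaseAvg B ≤ K * b := mul_le_mul_of_nonneg_left hB hK
  linarith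

end Average

end Crest.Agent.Helper92.S0112
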